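import Vale.Agent.P245.H329.Semi

/-! P245 (helper329): the entropy is subadditive; finite decompositions `f^2 = Σ f_j^2` -/

open MeasureTheory Set Filter Topology
open scoped ENNReal ContDiff

namespace Vale.Agent.P245.H329

variable {n : ℕ}

/-- Gibbs variational inequality, second form -/
theorem gibbs2 {μ : Measure (EuclideanSpace ℝ (Fin n))} [IsProbabilityMeasure μ]
    {g h : EuclideanSpace ℝ (Fin n) → ℝ} (hg : Continuous g) (hgc : HasCompactSupport g)
    (hh : Continuous h) (hhc : HasCompactSupport h) (h0 : ∀ x, 0 ≤ h x) (hhg : ∀ x, h x ≤ g x) :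
    Integrable (fun x => h x * Real.log (g x)) μ ∧
    (∫ x, h x * Real.log (g x) ∂μ) - Real.log (∫ x, g x ∂μ) * ∫ x, h x ∂μ ≤
      Entropy μ h := by
  have hg0 : ∀ x, 0 ≤ g x := fun x => (h0 x).trans (hhg x)
  have i1 : Integrable g μ := int_cc hg hgc
  have i2 : Integrable h μ := int_cc hh hhc
  have igl : Integrable (fun x => g x * Real.log (g x)) μ :=
    int_cc (Real.continuous_mul_log.comp hg) hgc.mul_right
  have i3 : Integrable (fun x => h x * Real.log (g x)) μ := by
    refine Integrable.mono igl ?_ (Eventually.of_forall fun x => ?_)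
    · exact (hh.measurable.mul (Real.measurable_log.comp hg.measurable)).aestronglyMeasurable
    · rw [norm_mul, norm_mul]
      apply mul_le_mul_of_nonneg_right _ (norm_nonneg _)
      rw [Real.norm_of_nonneg (h0 x), Real.norm_of_nonneg (hg0 x)]
      exact hhg x
  have i4 : Integrable (fun x => h x * Real.log (h x)) μ :=
    int_cc (Real.continuous_mul_log.comp hh) hhc.mul_right
  refine ⟨i3, ?_⟩
  unfold Entropy
  set H := ∫ x, h x ∂μ with hH
  set N := ∫ x, g x ∂μ with hN
  have hH0 : 0 ≤ H := integral_nonneg h0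
  have hN0 : 0 ≤ N := integral_nonneg hg0
  rcases hH0.eq_or_lt with hz | hpos
  · have e0 : h =ᵐ[μ] 0 := (integral_eq_zero_iff_of_nonneg h0 i2).1 hz.symm
    have e1 : ∫ x, h x * Real.log (g x) ∂μ = 0 := by
      apply integral_eq_zero_of_ae
      filter_upwards [e0] with x hx
      simp [hx]
    have e2 : ∫ x, h x * Real.log (h x) ∂μ = 0 := by
      apply integral_eq_zero_of_ae
      filter_upwards [e0] with x hx
      simp [hx]
    rw [e1, e2, ← hz]
    simp
  · have hNpos : 0 < N := lt_of_lt_of_le hpos (integral_mono i2 i1 hhg)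
    have hpt : ∀ x, h x - H / N * g x ≤
        h x * Real.log (h x) - h x * Real.log (g x)
          - Real.log H * h x + Real.log N * h x := by
      intro x
      rcases (h0 x).eq_or_lt with h' | h'
      · rw [← h']
        have : 0 ≤ H / N * g x := mul_nonneg (by positivity) (hg0 x)
        simp only [zero_mul, mul_zero, sub_zero, add_zero, zero_sub]
        linarith
      · have hgx : 0 < g x := lt_of_lt_of_le h' (hhg x)
        have ht : 0 < h x * N / (H * g x) := by positivity
        have h1 := Real.one_sub_inv_le_log_of_pos ht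
        have h2 : Real.log (h x * N / (H * g x)) =
            Real.log (h x) + Real.log N - (Real.log H + Real.log (g x)) := by
          rw [Real.log_div (by positivity) (by positivity), Real.log_mul h'.ne' hNpos.ne',
            Real.log_mul hpos.ne' hgx.ne']
        have h4 : h x * (1 - (h x * N / (H * g x))⁻¹) = h x - H / N * g x := by
          field_simp
        have h5 := mul_le_mul_of_nonneg_left h1 h'.le
        rw [h4, h2] at h5
        linarith
    have j1 : Integrable (fun x => h x * Real.log (h x) - h x * Real.log (g x)) μ := i4.sub i3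
    have j2 : Integrable (fun x => h x * Real.log (h x) - h x * Real.log (g x)
        - Real.log H * h x) μ := j1.sub (i2.const_mul _)
    have j3 : Integrable (fun x => h x * Real.log (h x) - h x * Real.log (g x)
        - Real.log H * h x + Real.log N * h x) μ := j2.add (i2.const_mul _)
    have hint := integral_mono (i2.sub (i1.const_mul (H / N))) j3 hpt
    have e1 : ∫ x, (h x - H / N * g x) ∂μ = 0 := by
      rw [integral_sub i2 (i1.const_mul _), integral_const_mul, ← hH, ← hN]
      field_simp
      simp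
    have e2 : ∫ x, (h x * Real.log (h x) - h x * Real.log (g x)
          - Real.log H * h x + Real.log N * h x) ∂μ =
        (∫ x, h x * Real.log (h x) ∂μ) - (∫ x, h x * Real.log (g x) ∂μ)
          - Real.log H * H + Real.log N * H := by
      rw [integral_add j2 (i2.const_mul _), integral_sub j1 (i2.const_mul _), integral_sub i4 i3,
        integral_const_mul, integral_const_mul]
    have hint' : (0 : ℝ) ≤ (∫ x, h x * Real.log (h x) ∂μ)
        - (∫ x, h x * Real.log (g x) ∂μ) - Real.log H * H + Real.log N * H := by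
      rw [← e1, ← e2]
      exact hint
    linarith

/-- the entropy is subadditive -/
theorem entropy_sum_le {μ : Measure (EuclideanSpace ℝ (Fin n))} [IsProbabilityMeasure μ]
    {ι : Type*} [Fintype ι] {g : ι → EuclideanSpace ℝ (Fin n) → ℝ} (hg : ∀ j, Continuous (g j))
    (hgc : ∀ j, HasCompactSupport (g j)) (h0 : ∀ j x, 0 ≤ g j x) :
    Entropy μ (fun x => ∑ j, g j x) ≤ ∑ j, Entropy μ (g j) := by
  classical
  have cG : Continuous fun x => ∑ j, g j x := continuous_finsetSum _ fun j _ => hg j
  have sG : HasCompactSupport fun x => ∑ j, g j x := by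
    have : ∀ s : Finset ι, HasCompactSupport fun x => ∑ j ∈ s, g j x := by
      intro s
      induction s using Finset.induction_on with
      | empty =>
        simp only [Finset.sum_empty]
        exact HasCompactSupport.zero
      | insert a s ha ih =>
        simp_rw [Finset.sum_insert ha]
        exact (hgc a).add ih
    exact this Finset.univ
  have hle : ∀ j x, g j x ≤ ∑ j, g j x := fun j x =>
    Finset.single_le_sum (f := fun j => g j x) (fun i _ => h0 i x) (Finset.mem_univ j)
  have key := fun j => gibbs2 (μ := μ) cG sG (hg j) (hgc j) (h0 j) (hle j)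
  have hi : ∀ j, Integrable (g j) μ := fun j => int_cc (hg j) (hgc j)
  have e1 : ∫ x, (∑ j, g j x) * Real.log (∑ j, g j x) ∂μ =
      ∑ j, ∫ x, g j x * Real.log (∑ j, g j x) ∂μ := by
    rw [← integral_finsetSum _ fun j _ => (key j).1]
    congr 1
    funext x
    rw [Finset.sum_mul]
  have e2 : ∫ x, ∑ j, g j x ∂μ = ∑ j, ∫ x, g j x ∂μ :=
    integral_finsetSum _ fun j _ => hi j
  have e3 : Entropy μ (fun x => ∑ j, g j x) =
      ∑ j, ((∫ x, g j x * Real.log (∑ j, g j x) ∂μ) -
        Real.log (∫ x, ∑ j, g j x ∂μ) * ∫ x, g j x ∂μ) := by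
    unfold Entropy
    rw [e1, Finset.sum_sub_distrib, ← Finset.mul_sum, ← e2]
    ring
  rw [e3]
  exact Finset.sum_le_sum fun j _ => (key j).2

/-- finite decompositions `f^2 = Σ f_j^2` into functions of a class `𝒞` in which the
inequality is known, with constants `Q_j` depending on the function -/
theorem mix_gen {μ : Measure (EuclideanSpace ℝ (Fin n))} [IsProbabilityMeasure μ]
    (m : ℕ) (Q : Fin m → ℝ) (F : Fin m → EuclideanSpace ℝ (Fin n) → ℝ)
    (hF : ∀ j, Continuous (F j)) (hc : ∀ j, HasCompactSupport (F j))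
    (hQ : ∀ j, Entropy μ (fun x => F j x ^ 2) ≤ Q j * ∫ x, ‖gradient (F j) x‖ ^ 2 ∂μ)
    (f : EuclideanSpace ℝ (Fin n) → ℝ) (hf : ∀ x, f x ^ 2 = ∑ j, F j x ^ 2) :
    Entropy μ (fun x => f x ^ 2) ≤ ∑ j, Q j * ∫ x, ‖gradient (F j) x‖ ^ 2 ∂μ := by
  simp_rw [hf]
  refine (entropy_sum_le (μ := μ) (g := fun j x => F j x ^ 2)
    (fun j => (hF j).pow 2)
    (fun j => (hc j).comp_left (g := fun t : ℝ => t ^ 2) (by simp))
    (fun j x => sq_nonneg _)).trans ?_
  exact Finset.sum_le_sum fun j _ => hQ j

/-- finite decompositions into quasi-concave functions -/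
theorem mix {μ : Measure (EuclideanSpace ℝ (Fin n))} [IsProbabilityMeasure μ]
    {Q : ℝ}
    (hQ : ∀ f : EuclideanSpace ℝ (Fin n) → ℝ, ContDiff ℝ ∞ f → HasCompactSupport f →
      QuasiconcaveOn ℝ univ (fun x => |f x|) →
      Entropy μ (fun x => f x ^ 2) ≤ Q * ∫ x, ‖gradient f x‖ ^ 2 ∂μ)
    (m : ℕ) (F : Fin m → EuclideanSpace ℝ (Fin n) → ℝ) (hF : ∀ j, ContDiff ℝ ∞ (F j))
    (hc : ∀ j, HasCompactSupport (F j)) (hq : ∀ j, QuasiconcaveOn ℝ univ (fun x => |F j x|))
    (f : EuclideanSpace ℝ (Fin n) → ℝ) (hf : ∀ x, f x ^ 2 = ∑ j, F j x ^ 2) :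
    Entropy μ (fun x => f x ^ 2) ≤ Q * ∑ j, ∫ x, ‖gradient (F j) x‖ ^ 2 ∂μ := by
  rw [Finset.mul_sum]
  exact mix_gen m (fun _ => Q) F (fun j => (hF j).continuous) hc
    (fun j => hQ (F j) (hF j) (hc j) (hq j)) f hf

end Vale.Agent.P245.H329
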