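import Vale.Agent.P245.H329.Mix

/-! P245 (helper329): named form of the rows SEMI and MIX over the inequality for quasi-concave
functions -/

open MeasureTheory Set Filter Topology
open scoped ENNReal ContDiff

namespace Vale.Agent.P245

variable {n : ℕ}

/-- the logarithmic Sobolev inequality for semi-log-concave functions, with the trace of the
upper bound of the Hessian as defect: if `f ∈ C_c^∞`, `M = Σ v_i v_iᵀ` and
`|f| exp(-⟨Mx,x⟩/4)` is log-concave, then `Ent(f²) ≤ C Λ (∫ |∇f|² + (tr M / 4) ∫ f²)`. -/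
def SemiLogConcaveLogSobolev (μ : Measure (EuclideanSpace ℝ (Fin n))) (C Λ : ℝ) : Prop :=
  ∀ (k : ℕ) (v : Fin k → EuclideanSpace ℝ (Fin n)) (f : EuclideanSpace ℝ (Fin n) → ℝ),
    ContDiff ℝ ∞ f → HasCompactSupport f →
    (∀ x y : EuclideanSpace ℝ (Fin n), ∀ a b : ℝ, 0 ≤ a → 0 ≤ b → a + b = 1 →
      (|f x| * Real.exp (-(∑ i, inner ℝ (v i) x ^ 2) / 4)) ^ a *
        (|f y| * Real.exp (-(∑ i, inner ℝ (v i) y ^ 2) / 4)) ^ b ≤
      |f (a • x + b • y)| * Real.exp (-(∑ i, inner ℝ (v i) (a • x + b • y) ^ 2) / 4)) →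
    Entropy μ (fun x => f x ^ 2) ≤
      C * Λ * ((∫ x, ‖gradient f x‖ ^ 2 ∂μ) + (∑ i, ‖v i‖ ^ 2) / 4 * ∫ x, f x ^ 2 ∂μ)

/-- the logarithmic Sobolev inequality for finite sums of squares of quasi-concave functions:
`Ent(Σ F_j²) ≤ C Λ Σ ∫ |∇F_j|²`. -/
def SumQuasiconcaveLogSobolev (μ : Measure (EuclideanSpace ℝ (Fin n))) (C Λ : ℝ) : Prop :=
  ∀ (m : ℕ) (F : Fin m → EuclideanSpace ℝ (Fin n) → ℝ), (∀ j, ContDiff ℝ ∞ (F j)) →
    (∀ j, HasCompactSupport (F j)) → (∀ j, QuasiconcaveOn ℝ univ (fun x => |F j x|)) →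
    Entropy μ (fun x => ∑ j, F j x ^ 2) ≤ C * Λ * ∑ j, ∫ x, ‖gradient (F j) x‖ ^ 2 ∂μ

namespace H329

/-- a continuous function whose absolute value is quasi-concave has one sign -/
theorem sign_qc {f : EuclideanSpace ℝ (Fin n) → ℝ} (hf : Continuous f)
    (hq : QuasiconcaveOn ℝ univ (fun x => |f x|)) : (∀ x, 0 ≤ f x) ∨ (∀ x, 0 ≤ -f x) := by
  by_contra hcon
  push Not at hcon
  obtain ⟨⟨x, hx⟩, y, hy⟩ := hcon
  have hy' : 0 < f y := by linarith
  set t := min |f x| |f y| with ht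
  have ht0 : 0 < t := lt_min (abs_pos.2 hx.ne) (abs_pos.2 hy'.ne')
  have hS : Convex ℝ {z ∈ (univ : Set (EuclideanSpace ℝ (Fin n))) | t ≤ |f z|} := hq t
  have hpre := hS.isPreconnected
  have h0 := hpre.intermediate_value (a := x) (b := y) (f := f)
    ⟨mem_univ _, min_le_left _ _⟩ ⟨mem_univ _, min_le_right _ _⟩ hf.continuousOn
    (show (0 : ℝ) ∈ Icc (f x) (f y) from ⟨hx.le, hy'.le⟩)
  obtain ⟨z, hz, hz0⟩ := h0
  have h1 : t ≤ |f z| := hz.2
  rw [hz0, abs_zero] at h1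
  linarith

/-- from nonnegative quasi-concave functions to `|f|` quasi-concave -/
theorem abs_form {μ : Measure (EuclideanSpace ℝ (Fin n))} {C Λ : ℝ}
    (h : ∀ f : EuclideanSpace ℝ (Fin n) → ℝ, ContDiff ℝ ∞ f → HasCompactSupport f →
      (∀ x, 0 ≤ f x) → QuasiconcaveOn ℝ univ f →
      Entropy μ (fun x => f x ^ 2) ≤ C * Λ * ∫ x, ‖gradient f x‖ ^ 2 ∂μ)
    (f : EuclideanSpace ℝ (Fin n) → ℝ) (hf : ContDiff ℝ ∞ f)
    (hc : HasCompactSupport f) (hq : QuasiconcaveOn ℝ univ (fun x => |f x|)) :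
    Entropy μ (fun x => f x ^ 2) ≤ C * Λ * ∫ x, ‖gradient f x‖ ^ 2 ∂μ := by
  rcases sign_qc hf.continuous hq with hs | hs
  · have e : (fun x => |f x|) = f := by
      funext x
      exact abs_of_nonneg (hs x)
    rw [e] at hq
    exact h f hf hc hs hq
  · have e : (fun x => |f x|) = fun x => -f x := by
      funext x
      have := hs x
      exact abs_of_nonpos (by linarith)
    rw [e] at hq
    have h1 := h (fun x => -f x) hf.neg hc.neg hs hq
    have e1 : ∀ x, gradient (fun x => -f x) x = -gradient f x := by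
      intro x
      unfold gradient
      rw [fderiv_fun_neg, map_neg]
    simpa [e1, neg_sq, norm_neg] using h1

/-- from the threshold / multi-peak form to `|f|` quasi-concave -/
theorem of_peaks {μ : Measure (EuclideanSpace ℝ (Fin n))} {D : ℝ}
    (h : ∀ f : EuclideanSpace ℝ (Fin n) → ℝ, ContDiff ℝ ∞ f → HasCompactSupport f → ∀ T : ℝ,
      (∀ᵐ t : ℝ, T < t → ∃ (N : ℕ) (B : Fin N → Set (EuclideanSpace ℝ (Fin n))),
        (∀ i, Convex ℝ (B i)) ∧ (∀ i, IsClosed (B i)) ∧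
        (∀ i j, i ≠ j → Disjoint (B i) (B j)) ∧ {x | t ≤ |f x|} = ⋃ i, B i) →
      Entropy μ (fun x => f x ^ 2) ≤
        D * (1 + Real.log (1 + T ^ 2 / ∫ x, f x ^ 2 ∂μ)) * ∫ x, ‖gradient f x‖ ^ 2 ∂μ)
    (f : EuclideanSpace ℝ (Fin n) → ℝ) (hf : ContDiff ℝ ∞ f)
    (hc : HasCompactSupport f) (hq : QuasiconcaveOn ℝ univ (fun x => |f x|)) :
    Entropy μ (fun x => f x ^ 2) ≤ D * ∫ x, ‖gradient f x‖ ^ 2 ∂μ := by
  have h1 := h f hf hc 0 (Eventually.of_forall fun t _ => ⟨1, fun _ => {x | t ≤ |f x|}, ?_, ?_, ?_, ?_⟩)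
  · simpa using h1
  · intro _
    have := hq t
    simpa using this
  · intro _
    exact isClosed_le continuous_const hf.continuous.abs
  · intro i j hij
    exact absurd (Subsingleton.elim i j) hij
  · exact (iUnion_const _).symm

theorem semi_named {μ : Measure (EuclideanSpace ℝ (Fin n))} [IsProbabilityMeasure μ] {C Λ : ℝ}
    (h : ∀ f : EuclideanSpace ℝ (Fin n) → ℝ, ContDiff ℝ ∞ f → HasCompactSupport f →
      QuasiconcaveOn ℝ univ (fun x => |f x|) →
      Entropy μ (fun x => f x ^ 2) ≤ C * Λ * ∫ x, ‖gradient f x‖ ^ 2 ∂μ) :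
    SemiLogConcaveLogSobolev μ C Λ := by
  intro k v f hf hc hlc
  exact semi h k v f hf hc hlc

theorem sum_named {μ : Measure (EuclideanSpace ℝ (Fin n))} [IsProbabilityMeasure μ] {C Λ : ℝ}
    (h : ∀ f : EuclideanSpace ℝ (Fin n) → ℝ, ContDiff ℝ ∞ f → HasCompactSupport f →
      QuasiconcaveOn ℝ univ (fun x => |f x|) →
      Entropy μ (fun x => f x ^ 2) ≤ C * Λ * ∫ x, ‖gradient f x‖ ^ 2 ∂μ) :
    SumQuasiconcaveLogSobolev μ C Λ := by
  intro m F hF hc hq
  rw [Finset.mul_sum]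
  refine (entropy_sum_le (μ := μ) (g := fun j x => F j x ^ 2)
    (fun j => (hF j).continuous.pow 2)
    (fun j => (hc j).comp_left (g := fun t : ℝ => t ^ 2) (by simp))
    (fun j x => sq_nonneg _)).trans ?_
  exact Finset.sum_le_sum fun j _ => h (F j) (hF j) (hc j) (hq j)

end H329

end Vale.Agent.P245
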