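import Vale.Agent.P245.Defs

/-! P245 (helper329): from the inequality for quasi-concave functions to an inequality for
functions `f` with `f^2 exp(-⟨Mx,x⟩/2)` log-concave, with defect `tr M / 4`. -/

open MeasureTheory Set Filter Topology
open scoped ENNReal ContDiff

namespace Vale.Agent.P245.H329

variable {n : ℕ}

/-- multiplicative form of log-concavity of a nonnegative function -/
def LC (w : EuclideanSpace ℝ (Fin n) → ℝ) : Prop :=
  ∀ x y : EuclideanSpace ℝ (Fin n), ∀ a b : ℝ, 0 ≤ a → 0 ≤ b → a + b = 1 →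
    w x ^ a * w y ^ b ≤ w (a • x + b • y)

theorem LC.quasi {w : EuclideanSpace ℝ (Fin n) → ℝ} (h : LC w) (h0 : ∀ x, 0 ≤ w x) :
    QuasiconcaveOn ℝ univ w := by
  intro t x hx y hy a b ha hb hab
  refine ⟨mem_univ _, ?_⟩
  have hx' : t ≤ w x := hx.2
  have hy' : t ≤ w y := hy.2
  have h1 := h x y a b ha hb hab
  refine le_trans ?_ h1
  rcases le_total t 0 with ht | ht
  · exact ht.trans (mul_nonneg (Real.rpow_nonneg (h0 x) _) (Real.rpow_nonneg (h0 y) _))
  rcases ht.eq_or_lt with ht | ht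
  · rw [← ht]
    exact mul_nonneg (Real.rpow_nonneg (h0 x) _) (Real.rpow_nonneg (h0 y) _)
  calc t = t ^ a * t ^ b := by rw [← Real.rpow_add ht, hab, Real.rpow_one]
    _ ≤ w x ^ a * w y ^ b := by
        apply mul_le_mul (Real.rpow_le_rpow ht.le hx' ha) (Real.rpow_le_rpow ht.le hy' hb)
          (Real.rpow_nonneg ht.le _) (Real.rpow_nonneg (h0 x) _)

theorem LC.mul_exp {w : EuclideanSpace ℝ (Fin n) → ℝ} (h : LC w) (h0 : ∀ x, 0 ≤ w x)
    {l : EuclideanSpace ℝ (Fin n) → ℝ}
    (hl : ∀ x y : EuclideanSpace ℝ (Fin n), ∀ a b : ℝ, a + b = 1 →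
      l (a • x + b • y) = a * l x + b * l y) :
    LC (fun x => w x * Real.exp (l x)) := by
  intro x y a b ha hb hab
  simp only
  rw [hl x y a b hab, Real.mul_rpow (h0 x) (Real.exp_pos _).le,
    Real.mul_rpow (h0 y) (Real.exp_pos _).le, ← Real.exp_mul, ← Real.exp_mul]
  calc w x ^ a * Real.exp (l x * a) * (w y ^ b * Real.exp (l y * b))
      = w x ^ a * w y ^ b * Real.exp (a * l x + b * l y) := by
        rw [show a * l x + b * l y = l x * a + l y * b by ring, Real.exp_add]; ring
    _ ≤ _ := mul_le_mul_of_nonneg_right (h x y a b ha hb hab) (Real.exp_pos _).le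

theorem int_cc {μ : Measure (EuclideanSpace ℝ (Fin n))} [IsProbabilityMeasure μ]
    {u : EuclideanSpace ℝ (Fin n) → ℝ} (hu : Continuous u) (hc : HasCompactSupport u) :
    Integrable u μ := hu.integrable_of_hasCompactSupport hc

/-- Gibbs variational inequality -/
theorem gibbs {μ : Measure (EuclideanSpace ℝ (Fin n))} [IsProbabilityMeasure μ]
    {g k : EuclideanSpace ℝ (Fin n) → ℝ} (hg : Continuous g) (hgc : HasCompactSupport g)
    (hg0 : ∀ x, 0 ≤ g x) (hk : Continuous k) (hk0 : ∀ x, 0 < k x) :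
    (∫ x, g x * Real.log (g x) * k x ∂μ) - Real.log (∫ x, g x ∂μ) * ∫ x, g x * k x ∂μ ≤
      Entropy μ (fun x => g x * k x) := by
  have i1 : Integrable g μ := int_cc hg hgc
  have i2 : Integrable (fun x => g x * k x) μ := int_cc (hg.mul hk) hgc.mul_right
  have hgl : Continuous fun x => g x * Real.log (g x) := Real.continuous_mul_log.comp hg
  have hglc : HasCompactSupport fun x => g x * Real.log (g x) := hgc.mul_right
  have i3 : Integrable (fun x => g x * Real.log (g x) * k x) μ :=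
    int_cc (hgl.mul hk) hglc.mul_right
  have i4 : Integrable (fun x => g x * k x * Real.log (g x * k x)) μ :=
    int_cc (Real.continuous_mul_log.comp (hg.mul hk)) (HasCompactSupport.mul_right hgc.mul_right)
  unfold Entropy
  set H := ∫ x, g x * k x ∂μ with hH
  set N := ∫ x, g x ∂μ with hN
  have hH0 : 0 ≤ H := integral_nonneg fun x => mul_nonneg (hg0 x) (hk0 x).le
  have hN0 : 0 ≤ N := integral_nonneg hg0
  rcases hH0.eq_or_lt with h | h
  · -- everything vanishes
    have e0 : (fun x => g x * k x) =ᵐ[μ] 0 :=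
      (integral_eq_zero_iff_of_nonneg (fun x => mul_nonneg (hg0 x) (hk0 x).le) i2).1 h.symm
    have e1 : ∫ x, g x * Real.log (g x) * k x ∂μ = 0 := by
      apply integral_eq_zero_of_ae
      filter_upwards [e0] with x hx
      have : g x = 0 := by
        rcases mul_eq_zero.1 hx with h' | h'
        · exact h'
        · exact absurd h' (hk0 x).ne'
      simp [this]
    have e2 : ∫ x, g x * k x * Real.log (g x * k x) ∂μ = 0 := by
      apply integral_eq_zero_of_ae
      filter_upwards [e0] with x hx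
      have hx' : g x * k x = 0 := hx
      simp [hx']
    rw [e1, e2, ← h]
    simp
  · have hNpos : 0 < N := by
      rcases hN0.eq_or_lt with h' | h'
      · exfalso
        have e0 : g =ᵐ[μ] 0 := (integral_eq_zero_iff_of_nonneg hg0 i1).1 h'.symm
        have : H = 0 := by
          rw [hH]
          apply integral_eq_zero_of_ae
          filter_upwards [e0] with x hx
          simp [hx]
        linarith
      · exact h'
    have hpt : ∀ x, g x * k x - H / N * g x ≤
        g x * k x * Real.log (g x * k x) - g x * Real.log (g x) * k x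
          - Real.log H * (g x * k x) + Real.log N * (g x * k x) := by
      intro x
      rcases (hg0 x).eq_or_lt with h' | h'
      · rw [← h']; simp
      · have hk' := hk0 x
        have ht : 0 < k x * N / H := by positivity
        have h1 := Real.one_sub_inv_le_log_of_pos ht
        have h2 : Real.log (k x * N / H) = Real.log (k x) + Real.log N - Real.log H := by
          rw [Real.log_div (by positivity) h.ne', Real.log_mul hk'.ne' hNpos.ne']
        have h3 : Real.log (g x * k x) = Real.log (g x) + Real.log (k x) :=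
          Real.log_mul h'.ne' hk'.ne'
        rw [h3]
        have h4 : g x * k x * (1 - (k x * N / H)⁻¹) = g x * k x - H / N * g x := by
          field_simp
        have h5 := mul_le_mul_of_nonneg_left h1 (mul_pos h' hk').le
        rw [h4, h2] at h5
        linarith
    have hint := integral_mono (i2.sub (i1.const_mul (H / N)))
      (((i4.sub i3).sub (i2.const_mul (Real.log H))).add (i2.const_mul (Real.log N))) hpt
    have e1 : ∫ x, (g x * k x - H / N * g x) ∂μ = 0 := by
      rw [integral_sub i2 (i1.const_mul _), integral_const_mul, ← hH, ← hN]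
      field_simp
      simp
    have e2 : ∫ x, (g x * k x * Real.log (g x * k x) - g x * Real.log (g x) * k x
          - Real.log H * (g x * k x) + Real.log N * (g x * k x)) ∂μ =
        (∫ x, g x * k x * Real.log (g x * k x) ∂μ) - (∫ x, g x * Real.log (g x) * k x ∂μ)
          - Real.log H * H + Real.log N * H := by
      have j1 : Integrable (fun x => g x * k x * Real.log (g x * k x) -
          g x * Real.log (g x) * k x) μ := i4.sub i3
      have j2 : Integrable (fun x => g x * k x * Real.log (g x * k x) -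
          g x * Real.log (g x) * k x - Real.log H * (g x * k x)) μ := j1.sub (i2.const_mul _)
      rw [integral_add j2 (i2.const_mul _),
        integral_sub j1 (i2.const_mul _), integral_sub i4 i3, integral_const_mul,
        integral_const_mul]
    have hint' : (0 : ℝ) ≤ (∫ x, g x * k x * Real.log (g x * k x) ∂μ)
        - (∫ x, g x * Real.log (g x) * k x ∂μ) - Real.log H * H + Real.log N * H := by
      rw [← e1, ← e2]
      exact hint
    linarith

/-- Fubini for a shifted kernel -/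
theorem fub {μ : Measure (EuclideanSpace ℝ (Fin n))} [IsProbabilityMeasure μ]
    {a s : EuclideanSpace ℝ (Fin n) → ℝ} (ha : Continuous a) (hac : HasCompactSupport a)
    (hs : Continuous s) {φ : ℝ → ℝ} (hφ : Continuous φ) (hφi : Integrable φ) :
    Integrable (fun θ : ℝ => ∫ x, a x * φ (θ - s x) ∂μ) ∧
      ∫ θ : ℝ, ∫ x, a x * φ (θ - s x) ∂μ = (∫ θ, φ θ) * ∫ x, a x ∂μ := by
  have hi : Integrable (Function.uncurry fun (x : EuclideanSpace ℝ (Fin n)) (θ : ℝ) =>
      a x * φ (θ - s x)) (μ.prod volume) := by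
    rw [integrable_prod_iff]
    · refine ⟨Eventually.of_forall fun x => ?_, ?_⟩
      · exact (hφi.comp_sub_right (s x)).const_mul (a x)
      · have : (fun x => ∫ y : ℝ, ‖Function.uncurry (fun (x : EuclideanSpace ℝ (Fin n)) (θ : ℝ) =>
            a x * φ (θ - s x)) (x, y)‖) = fun x => |a x| * ∫ y : ℝ, |φ y| := by
          funext x
          simp only [Function.uncurry, norm_mul, Real.norm_eq_abs]
          rw [integral_const_mul]
          congr 1
          exact integral_sub_right_eq_self (fun y => |φ y|) (s x)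
        rw [this]
        exact ((int_cc ha hac).abs).mul_const _
    · apply Continuous.aestronglyMeasurable
      simp only [Function.uncurry_def]
      exact (ha.comp continuous_fst).mul (hφ.comp (continuous_snd.sub (hs.comp continuous_fst)))
  refine ⟨?_, ?_⟩
  · exact hi.integral_prod_right
  · rw [← integral_integral_swap hi]
    have : ∀ x, ∫ θ : ℝ, a x * φ (θ - s x) = a x * ∫ θ, φ θ := by
      intro x
      rw [integral_const_mul]
      congr 1
      exact integral_sub_right_eq_self φ (s x)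
    simp_rw [this]
    rw [integral_mul_const]
    ring

/-! the three Gaussian integrals -/

noncomputable def c0 : ℝ := ∫ θ : ℝ, Real.exp (-θ ^ 2 / 2)

theorem g0i : Integrable fun θ : ℝ => Real.exp (-θ ^ 2 / 2) := by
  have h := integrable_exp_neg_mul_sq (b := 1 / 2) (by norm_num)
  refine h.congr (Eventually.of_forall fun θ => ?_)
  simp only
  congr 1; ring

theorem c0_pos : 0 < c0 := by
  unfold c0
  have h := integral_gaussian (1 / 2)
  have e : (fun θ : ℝ => Real.exp (-θ ^ 2 / 2)) = fun θ => Real.exp (-(1 / 2) * θ ^ 2) := by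
    funext θ; congr 1; ring
  rw [e, h]
  positivity

theorem g1i : Integrable fun θ : ℝ => θ * Real.exp (-θ ^ 2 / 2) := by
  have h := integrable_mul_exp_neg_mul_sq (b := 1 / 2) (by norm_num)
  refine h.congr (Eventually.of_forall fun θ => ?_)
  simp only
  congr 2; ring

theorem g2i : Integrable fun θ : ℝ => θ ^ 2 * Real.exp (-θ ^ 2 / 2) := by
  have h := integrable_rpow_mul_exp_neg_mul_sq (b := 1 / 2) (by norm_num) (s := 2) (by norm_num)
  refine h.congr (Eventually.of_forall fun θ => ?_)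
  simp only [Real.rpow_two]
  congr 2; ring

theorem g1 : ∫ θ : ℝ, θ * Real.exp (-θ ^ 2 / 2) = 0 := by
  have h := integral_neg_eq_self (fun θ : ℝ => θ * Real.exp (-θ ^ 2 / 2)) volume
  have e : (fun θ : ℝ => -θ * Real.exp (-(-θ) ^ 2 / 2)) =
      fun θ : ℝ => -(θ * Real.exp (-θ ^ 2 / 2)) := by
    funext θ
    rw [neg_sq]; ring
  rw [e, integral_neg] at h
  linarith

theorem g2 : ∫ θ : ℝ, θ ^ 2 * Real.exp (-θ ^ 2 / 2) = c0 := by
  have hd : ∀ θ : ℝ, HasDerivAt (fun θ : ℝ => θ) 1 θ := fun θ => hasDerivAt_id θ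
  have he : ∀ θ : ℝ, HasDerivAt (fun θ : ℝ => -Real.exp (-θ ^ 2 / 2))
      (θ * Real.exp (-θ ^ 2 / 2)) θ := by
    intro θ
    have h1 : HasDerivAt (fun θ : ℝ => -θ ^ 2 / 2) (-θ) θ := by
      have h2 := (((hasDerivAt_id θ).fun_pow 2).neg).div_const 2
      have h3 : -(((2 : ℕ) : ℝ) * id θ ^ (2 - 1) * 1) / 2 = -θ := by
        simp
        ring
      rw [h3] at h2
      exact h2
    have h2 := h1.exp.neg
    have h3 : -(Real.exp (-θ ^ 2 / 2) * -θ) = θ * Real.exp (-θ ^ 2 / 2) := by ring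
    rw [h3] at h2
    exact h2
  have h := integral_mul_deriv_eq_deriv_mul_of_integrable (u := fun θ : ℝ => θ)
    (v := fun θ : ℝ => -Real.exp (-θ ^ 2 / 2)) (u' := fun _ => 1)
    (v' := fun θ => θ * Real.exp (-θ ^ 2 / 2)) (fun x _ => hd x) (fun x _ => he x)
    (by
      refine g2i.congr (Eventually.of_forall fun θ => ?_)
      simp only [Pi.mul_apply]
      ring)
    (by
      refine g0i.neg.congr (Eventually.of_forall fun θ => ?_)
      simp)
    (by
      refine g1i.neg.congr (Eventually.of_forall fun θ => ?_)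
      simp)
  have e1 : (fun θ : ℝ => θ ^ 2 * Real.exp (-θ ^ 2 / 2)) =
      fun θ => θ * (θ * Real.exp (-θ ^ 2 / 2)) := by
    funext θ; ring
  rw [e1, h]
  simp [c0, integral_neg]

/-! the rank one step -/

theorem inner_cont (v : EuclideanSpace ℝ (Fin n)) :
    Continuous fun x : EuclideanSpace ℝ (Fin n) => inner ℝ v x := by fun_prop

theorem grad_formula {f : EuclideanSpace ℝ (Fin n) → ℝ} (hf : ContDiff ℝ ∞ f)
    (v : EuclideanSpace ℝ (Fin n)) (θ : ℝ) (x : EuclideanSpace ℝ (Fin n)) :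
    gradient (fun x => f x * Real.exp (-(θ - inner ℝ v x) ^ 2 / 4)) x =
      Real.exp (-(θ - inner ℝ v x) ^ 2 / 4) •
        (gradient f x + (f x * (θ - inner ℝ v x) / 2) • v) := by
  apply HasGradientAt.gradient
  rw [hasGradientAt_iff_hasFDerivAt]
  have hd : HasFDerivAt f (fderiv ℝ f x) x := (hf.differentiable (by simp) x).hasFDerivAt
  have h1 : HasFDerivAt (fun x : EuclideanSpace ℝ (Fin n) => inner ℝ v x) (innerSL ℝ v) x :=
    (innerSL ℝ v).hasFDerivAt
  have h2 : HasFDerivAt (fun x : EuclideanSpace ℝ (Fin n) => θ - inner ℝ v x)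
      (-(innerSL ℝ v)) x := h1.const_sub θ
  have h3 : HasFDerivAt (fun x : EuclideanSpace ℝ (Fin n) =>
      (θ - inner ℝ v x) * (θ - inner ℝ v x) * (-1 / 4))
      ((-1 / 4 : ℝ) • ((θ - inner ℝ v x) • (-(innerSL ℝ v)) +
        (θ - inner ℝ v x) • (-(innerSL ℝ v)))) x := by
    have := (h2.mul h2).mul_const (-1 / 4)
    exact this
  have h4 := h3.exp
  have h5 := hd.mul h4
  have e1 : (fun x : EuclideanSpace ℝ (Fin n) => f x * Real.exp (-(θ - inner ℝ v x) ^ 2 / 4)) =
      f * fun x => Real.exp ((θ - inner ℝ v x) * (θ - inner ℝ v x) * (-1 / 4)) := by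
    funext y
    simp only [Pi.mul_apply]
    congr 2; ring
  rw [e1]
  have e2 : Real.exp (-(θ - inner ℝ v x) ^ 2 / 4) =
      Real.exp ((θ - inner ℝ v x) * (θ - inner ℝ v x) * (-1 / 4)) := by
    congr 1; ring
  rw [e2]
  have hg : fderiv ℝ f x = (InnerProductSpace.toDual ℝ (EuclideanSpace ℝ (Fin n)))
      (gradient f x) := by
    unfold gradient; simp
  refine h5.congr_fderiv ?_
  ext y
  rw [hg]
  simp only [InnerProductSpace.toDual_apply_apply, add_apply,
    smul_apply, neg_apply, innerSL_apply_apply, smul_eq_mul,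
    inner_smul_left, inner_add_left, conj_trivial]
  ring

theorem step {μ : Measure (EuclideanSpace ℝ (Fin n))} [IsProbabilityMeasure μ]
    {Q B : ℝ} (v : EuclideanSpace ℝ (Fin n))
    {f : EuclideanSpace ℝ (Fin n) → ℝ} (hf : ContDiff ℝ ∞ f) (hc : HasCompactSupport f)
    (h : ∀ θ : ℝ,
      Entropy μ (fun x => (f x * Real.exp (-(θ - inner ℝ v x) ^ 2 / 4)) ^ 2) ≤
        Q * ((∫ x, ‖gradient (fun x => f x * Real.exp (-(θ - inner ℝ v x) ^ 2 / 4)) x‖ ^ 2 ∂μ) +
          B * ∫ x, (f x * Real.exp (-(θ - inner ℝ v x) ^ 2 / 4)) ^ 2 ∂μ)) :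
    Entropy μ (fun x => f x ^ 2) ≤
      Q * ((∫ x, ‖gradient f x‖ ^ 2 ∂μ) + (‖v‖ ^ 2 / 4 + B) * ∫ x, f x ^ 2 ∂μ) := by
  have hfc := hf.continuous
  have hs := inner_cont v
  have hdc : Continuous (fderiv ℝ f) := hf.continuous_fderiv (by simp)
  have hdcs : HasCompactSupport (fderiv ℝ f) := hc.fderiv ℝ
  have hgrad : Continuous (gradient f) := by
    unfold gradient
    exact (LinearIsometryEquiv.continuous _).comp hdc
  have hgradc : HasCompactSupport (gradient f) := by
    unfold gradient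
    exact hdcs.comp_left (g := (InnerProductSpace.toDual ℝ (EuclideanSpace ℝ (Fin n))).symm)
      (by simp)
  -- the coefficient functions
  have cA : Continuous fun x => ‖gradient f x‖ ^ 2 := hgrad.norm.pow 2
  have sA : HasCompactSupport fun x => ‖gradient f x‖ ^ 2 :=
    hgradc.comp_left (g := fun w => ‖w‖ ^ 2) (by simp)
  have cB : Continuous fun x => f x * inner ℝ (gradient f x) v :=
    hfc.mul (hgrad.inner continuous_const)
  have sB : HasCompactSupport fun x => f x * inner ℝ (gradient f x) v := hc.mul_right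
  have cG : Continuous fun x => f x ^ 2 := hfc.pow 2
  have sG : HasCompactSupport fun x => f x ^ 2 := hc.comp_left (g := fun t : ℝ => t ^ 2) (by simp)
  have cL : Continuous fun x => f x ^ 2 * Real.log (f x ^ 2) :=
    Real.continuous_mul_log.comp cG
  have sL : HasCompactSupport fun x => f x ^ 2 * Real.log (f x ^ 2) := sG.mul_right
  have k0c : Continuous fun θ : ℝ => Real.exp (-θ ^ 2 / 2) := by fun_prop
  have k1c : Continuous fun θ : ℝ => θ * Real.exp (-θ ^ 2 / 2) := by fun_prop
  have k2c : Continuous fun θ : ℝ => θ ^ 2 * Real.exp (-θ ^ 2 / 2) := by fun_prop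
  obtain ⟨iA, eA⟩ := fub (μ := μ) cA sA hs k0c g0i
  obtain ⟨iB, eB⟩ := fub (μ := μ) cB sB hs k1c g1i
  obtain ⟨iC, eC⟩ := fub (μ := μ) cG sG hs k2c g2i
  obtain ⟨iG, eG⟩ := fub (μ := μ) cG sG hs k0c g0i
  obtain ⟨iL, eL⟩ := fub (μ := μ) cL sL hs k0c g0i
  rw [g1, zero_mul] at eB
  rw [g2] at eC
  change _ = c0 * _ at eA
  change _ = c0 * _ at eG
  change _ = c0 * _ at eL
  set N := ∫ x, f x ^ 2 ∂μ with hN
  have hsq : ∀ θ : ℝ, ∀ x, (f x * Real.exp (-(θ - inner ℝ v x) ^ 2 / 4)) ^ 2 =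
      f x ^ 2 * Real.exp (-(θ - inner ℝ v x) ^ 2 / 2) := by
    intro θ x
    rw [mul_pow, ← Real.exp_nat_mul]
    congr 2; push_cast; ring
  have key : ∀ θ : ℝ,
      (∫ x, f x ^ 2 * Real.log (f x ^ 2) * Real.exp (-(θ - inner ℝ v x) ^ 2 / 2) ∂μ) -
        Real.log N * ∫ x, f x ^ 2 * Real.exp (-(θ - inner ℝ v x) ^ 2 / 2) ∂μ ≤
      Q * (((∫ x, ‖gradient f x‖ ^ 2 * Real.exp (-(θ - inner ℝ v x) ^ 2 / 2) ∂μ) +
        (∫ x, f x * inner ℝ (gradient f x) v *
          ((θ - inner ℝ v x) * Real.exp (-(θ - inner ℝ v x) ^ 2 / 2)) ∂μ) +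
        ‖v‖ ^ 2 / 4 * ∫ x, f x ^ 2 *
          ((θ - inner ℝ v x) ^ 2 * Real.exp (-(θ - inner ℝ v x) ^ 2 / 2)) ∂μ) +
        B * ∫ x, f x ^ 2 * Real.exp (-(θ - inner ℝ v x) ^ 2 / 2) ∂μ) := by
    intro θ
    have kc : Continuous fun x => Real.exp (-(θ - inner ℝ v x) ^ 2 / 2) := by fun_prop
    have h1 := gibbs (μ := μ) (g := fun x => f x ^ 2)
      (k := fun x => Real.exp (-(θ - inner ℝ v x) ^ 2 / 2)) cG sG (fun x => sq_nonneg _) kc
      (fun x => Real.exp_pos _)
    have h2 := h θ
    simp_rw [hsq θ] at h2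
    have h3 : ∫ x, ‖gradient (fun x => f x * Real.exp (-(θ - inner ℝ v x) ^ 2 / 4)) x‖ ^ 2 ∂μ =
        (∫ x, ‖gradient f x‖ ^ 2 * Real.exp (-(θ - inner ℝ v x) ^ 2 / 2) ∂μ) +
        (∫ x, f x * inner ℝ (gradient f x) v *
          ((θ - inner ℝ v x) * Real.exp (-(θ - inner ℝ v x) ^ 2 / 2)) ∂μ) +
        ‖v‖ ^ 2 / 4 * ∫ x, f x ^ 2 *
          ((θ - inner ℝ v x) ^ 2 * Real.exp (-(θ - inner ℝ v x) ^ 2 / 2)) ∂μ := by
      have j1 : Integrable (fun x => ‖gradient f x‖ ^ 2 *
          Real.exp (-(θ - inner ℝ v x) ^ 2 / 2)) μ := int_cc (cA.mul kc) sA.mul_right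
      have j2 : Integrable (fun x => f x * inner ℝ (gradient f x) v *
          ((θ - inner ℝ v x) * Real.exp (-(θ - inner ℝ v x) ^ 2 / 2))) μ :=
        int_cc (cB.mul ((continuous_const.sub hs).mul kc)) sB.mul_right
      have j3 : Integrable (fun x => f x ^ 2 *
          ((θ - inner ℝ v x) ^ 2 * Real.exp (-(θ - inner ℝ v x) ^ 2 / 2))) μ :=
        int_cc (cG.mul (((continuous_const.sub hs).pow 2).mul kc)) sG.mul_right
      have j12 : Integrable (fun x => ‖gradient f x‖ ^ 2 *
          Real.exp (-(θ - inner ℝ v x) ^ 2 / 2) + f x * inner ℝ (gradient f x) v *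
          ((θ - inner ℝ v x) * Real.exp (-(θ - inner ℝ v x) ^ 2 / 2))) μ := j1.add j2
      rw [← integral_const_mul, ← integral_add j1 j2, ← integral_add j12 (j3.const_mul _)]
      congr 1
      funext x
      rw [grad_formula hf v θ x, norm_smul, mul_pow, Real.norm_of_nonneg (Real.exp_pos _).le,
        ← Real.exp_nat_mul, norm_add_sq_real, norm_smul, inner_smul_right, mul_pow,
        Real.norm_eq_abs, sq_abs]
      have e1 : ((2 : ℕ) : ℝ) * (-(θ - inner ℝ v x) ^ 2 / 4) = -(θ - inner ℝ v x) ^ 2 / 2 := by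
        push_cast; ring
      rw [e1]
      ring
    rw [h3] at h2
    exact h1.trans h2
  have I := integral_mono (iL.sub (iG.const_mul (Real.log N)))
    ((((iA.add iB).add (iC.const_mul (‖v‖ ^ 2 / 4))).add (iG.const_mul B)).const_mul Q) key
  have eLeft : ∫ θ : ℝ, ((∫ x, f x ^ 2 * Real.log (f x ^ 2) *
        Real.exp (-(θ - inner ℝ v x) ^ 2 / 2) ∂μ) -
        Real.log N * ∫ x, f x ^ 2 * Real.exp (-(θ - inner ℝ v x) ^ 2 / 2) ∂μ) =
      c0 * Entropy μ (fun x => f x ^ 2) := by
    rw [integral_sub iL (iG.const_mul _), integral_const_mul, eL, eG]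
    unfold Entropy
    rw [← hN]
    ring
  have eRight : ∫ θ : ℝ, Q * (((∫ x, ‖gradient f x‖ ^ 2 *
          Real.exp (-(θ - inner ℝ v x) ^ 2 / 2) ∂μ) +
        (∫ x, f x * inner ℝ (gradient f x) v *
          ((θ - inner ℝ v x) * Real.exp (-(θ - inner ℝ v x) ^ 2 / 2)) ∂μ) +
        ‖v‖ ^ 2 / 4 * ∫ x, f x ^ 2 *
          ((θ - inner ℝ v x) ^ 2 * Real.exp (-(θ - inner ℝ v x) ^ 2 / 2)) ∂μ) +
        B * ∫ x, f x ^ 2 * Real.exp (-(θ - inner ℝ v x) ^ 2 / 2) ∂μ) =
      c0 * (Q * ((∫ x, ‖gradient f x‖ ^ 2 ∂μ) + (‖v‖ ^ 2 / 4 + B) * N)) := by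
    have j1 := iA.add iB
    have j2 := j1.add (iC.const_mul (‖v‖ ^ 2 / 4))
    rw [integral_const_mul]
    have e1 := integral_add j2 (iG.const_mul B)
    have e2 := integral_add j1 (iC.const_mul (‖v‖ ^ 2 / 4))
    have e3 := integral_add iA iB
    simp only [Pi.add_apply] at e1 e2 e3
    rw [e1, e2, e3, integral_const_mul, integral_const_mul, eA, eB, eC, eG]
    ring
  have I2 : c0 * Entropy μ (fun x => f x ^ 2) ≤
      c0 * (Q * ((∫ x, ‖gradient f x‖ ^ 2 ∂μ) + (‖v‖ ^ 2 / 4 + B) * N)) := by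
    rw [← eLeft, ← eRight]
    exact I
  exact le_of_mul_le_mul_left I2 c0_pos

/-- **Semi-log-concave functions, general class.** `𝒞` is any class of functions in which the
inequality is known. If `f exp(-Σ (θ_i - ⟨v_i,x⟩)^2/4)` is in `𝒞` for all `θ`, then the
entropy of `f^2` is bounded with the defect `Σ |v_i|^2 / 4`. -/
theorem semi_gen {μ : Measure (EuclideanSpace ℝ (Fin n))} [IsProbabilityMeasure μ]
    {Q : ℝ} (𝒞 : (EuclideanSpace ℝ (Fin n) → ℝ) → Prop)
    (hQ : ∀ f : EuclideanSpace ℝ (Fin n) → ℝ, ContDiff ℝ ∞ f → HasCompactSupport f → 𝒞 f →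
      Entropy μ (fun x => f x ^ 2) ≤ Q * ∫ x, ‖gradient f x‖ ^ 2 ∂μ) :
    ∀ (k : ℕ) (v : Fin k → EuclideanSpace ℝ (Fin n)) (f : EuclideanSpace ℝ (Fin n) → ℝ),
      ContDiff ℝ ∞ f → HasCompactSupport f →
      (∀ θ : Fin k → ℝ, 𝒞 (fun x => f x * Real.exp (-(∑ i, (θ i - inner ℝ (v i) x) ^ 2) / 4))) →
      Entropy μ (fun x => f x ^ 2) ≤
        Q * ((∫ x, ‖gradient f x‖ ^ 2 ∂μ) + (∑ i, ‖v i‖ ^ 2) / 4 * ∫ x, f x ^ 2 ∂μ) := by
  intro k
  induction k with
  | zero =>
    intro v f hf hc hC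
    have h := hC (fun i => i.elim0)
    simp only [Finset.univ_eq_empty, Finset.sum_empty, neg_zero, zero_div, Real.exp_zero,
      mul_one, zero_mul, add_zero] at h ⊢
    exact hQ f hf hc h
  | succ k ih =>
    intro v f hf hc hC
    have hfin := step (μ := μ) (Q := Q) (B := (∑ i : Fin k, ‖v i.succ‖ ^ 2) / 4)
      (v 0) hf hc (fun θ => ?_)
    · rw [Fin.sum_univ_succ]
      refine hfin.trans (le_of_eq ?_)
      ring
    · refine ih (fun i => v i.succ) (fun x => f x * Real.exp (-(θ - inner ℝ (v 0) x) ^ 2 / 4)) ?_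
        hc.mul_right (fun θ' => ?_)
      · apply hf.mul
        apply ContDiff.exp
        apply ContDiff.div_const
        apply ContDiff.neg
        apply ContDiff.pow
        exact contDiff_const.sub (innerSL ℝ (v 0)).contDiff
      · have h := hC (Fin.cons θ θ')
        have e : (fun x => f x * Real.exp (-(∑ i, ((Fin.cons θ θ' : Fin (k + 1) → ℝ) i -
            inner ℝ (v i) x) ^ 2) / 4)) =
            fun x => f x * Real.exp (-(θ - inner ℝ (v 0) x) ^ 2 / 4) *
              Real.exp (-(∑ i : Fin k, (θ' i - inner ℝ (v i.succ) x) ^ 2) / 4) := by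
          funext x
          rw [mul_assoc, ← Real.exp_add, Fin.sum_univ_succ]
          simp only [Fin.cons_zero, Fin.cons_succ]
          congr 2
          ring
        rw [← e]
        exact h

/-- **Semi-log-concave functions.** If `|f| exp(-Σ ⟨v_i,x⟩^2/4)` is log-concave, then the
entropy of `f^2` is bounded with the defect `Σ |v_i|^2 / 4`. -/
theorem semi {μ : Measure (EuclideanSpace ℝ (Fin n))} [IsProbabilityMeasure μ]
    {Q : ℝ}
    (hQ : ∀ f : EuclideanSpace ℝ (Fin n) → ℝ, ContDiff ℝ ∞ f → HasCompactSupport f →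
      QuasiconcaveOn ℝ univ (fun x => |f x|) →
      Entropy μ (fun x => f x ^ 2) ≤ Q * ∫ x, ‖gradient f x‖ ^ 2 ∂μ)
    (k : ℕ) (v : Fin k → EuclideanSpace ℝ (Fin n)) (f : EuclideanSpace ℝ (Fin n) → ℝ)
    (hf : ContDiff ℝ ∞ f) (hc : HasCompactSupport f)
    (hlc : LC (fun x => |f x| * Real.exp (-(∑ i, inner ℝ (v i) x ^ 2) / 4))) :
      Entropy μ (fun x => f x ^ 2) ≤
        Q * ((∫ x, ‖gradient f x‖ ^ 2 ∂μ) + (∑ i, ‖v i‖ ^ 2) / 4 * ∫ x, f x ^ 2 ∂μ) := by
  refine semi_gen (fun g => QuasiconcaveOn ℝ univ (fun x => |g x|)) hQ k v f hf hc fun θ => ?_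
  have hl := hlc.mul_exp (fun x => mul_nonneg (abs_nonneg _) (Real.exp_pos _).le)
    (l := fun x => ∑ i, (-θ i ^ 2 / 4 + θ i / 2 * inner ℝ (v i) x)) (by
      intro x y a b hab
      rw [Finset.mul_sum, Finset.mul_sum, ← Finset.sum_add_distrib]
      refine Finset.sum_congr rfl fun i _ => ?_
      simp only [inner_add_right, inner_smul_right]
      have hb : b = 1 - a := by linarith
      rw [hb]
      ring)
  have e : (fun x => |f x| * Real.exp (-(∑ i, inner ℝ (v i) x ^ 2) / 4) *
      Real.exp (∑ i, (-θ i ^ 2 / 4 + θ i / 2 * inner ℝ (v i) x))) =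
      fun x => |f x * Real.exp (-(∑ i, (θ i - inner ℝ (v i) x) ^ 2) / 4)| := by
    funext x
    rw [abs_mul, abs_of_pos (Real.exp_pos _), mul_assoc, ← Real.exp_add]
    congr 2
    rw [neg_div, neg_div, Finset.sum_div, Finset.sum_div, ← Finset.sum_neg_distrib,
      ← Finset.sum_neg_distrib, ← Finset.sum_add_distrib]
    refine Finset.sum_congr rfl fun i _ => ?_
    ring
  have h2 : QuasiconcaveOn ℝ univ (fun x => |f x * Real.exp (-(∑ i, (θ i - inner ℝ (v i) x) ^ 2) / 4)|) := by
    rw [← e]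
    exact hl.quasi fun x => mul_nonneg (mul_nonneg (abs_nonneg _) (Real.exp_pos _).le)
      (Real.exp_pos _).le
  exact h2

end Vale.Agent.P245.H329
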